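import Vale.Agent.P224.Vol

namespace Vale.Agent.Results.P224.CliffordMin

open Vale.Agent.P224

theorem result (m : ℕ) (hm : 2 ≤ m) :
    IsLeast (cliffordVol m '' Set.Ico 1 m) (cliffordVol m (m / 2)) := by
  refine ⟨⟨m / 2, ⟨by omega, by omega⟩, rfl⟩, ?_⟩
  rintro _ ⟨k, ⟨hk1, hk2⟩, rfl⟩
  exact cliffordVol_half_le hk1 hk2

end Vale.Agent.Results.P224.CliffordMin
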